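import Mathlib

/-!
# P088, stage 3, row PHI: the slope function

`sg A s = E/(E+A)` with `E = exp (2 s)`, and the slope
`N s = M * ((1+E/A1)/(1+E/A2))^a * ((1+E/A1)/(1+E/A3))^g`.
-/

open Real Set
open scoped ContDiff

namespace Vale.Agent.P088.R2.H406.Phi

/-- logistic function of `2s`, threshold `A` -/
noncomputable def sg (A s : ℝ) : ℝ := exp (2 * s) / (exp (2 * s) + A)

/-- primitive of `2 * sg` -/
noncomputable def lg (A s : ℝ) : ℝ := log (exp (2 * s) + A) - log A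

section basic

variable {A s : ℝ}

lemma den_pos (hA : 0 < A) : 0 < exp (2 * s) + A := add_pos (exp_pos _) hA

lemma sg_pos (hA : 0 < A) : 0 < sg A s := div_pos (exp_pos _) (den_pos hA)

lemma sg_lt_one (hA : 0 < A) : sg A s < 1 := by
  rw [sg, div_lt_one (den_pos hA)]; linarith

lemma contDiff_sg (hA : 0 < A) : ContDiff ℝ ∞ (sg A) := by
  unfold sg
  exact ContDiff.div (by fun_prop) (by fun_prop) fun s => (den_pos hA).ne'

lemma contDiff_lg (hA : 0 < A) : ContDiff ℝ ∞ (lg A) := by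
  unfold lg
  exact (ContDiff.log (by fun_prop) fun s => (den_pos hA).ne').sub contDiff_const

lemma hasDerivAt_E (s : ℝ) : HasDerivAt (fun s => exp (2 * s)) (2 * exp (2 * s)) s := by
  have h := ((hasDerivAt_id s).const_mul 2).exp
  exact h.congr_deriv (by simp [mul_comm])

lemma hasDerivAt_lg (hA : 0 < A) (s : ℝ) : HasDerivAt (lg A) (2 * sg A s) s := by
  have h := (((hasDerivAt_E s).add_const A).log (den_pos hA).ne').sub_const (log A)
  exact h.congr_deriv (by simp only [sg]; ring)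

lemma hasDerivAt_sg (hA : 0 < A) (s : ℝ) :
    HasDerivAt (sg A) (2 * sg A s * (1 - sg A s)) s := by
  have h := (hasDerivAt_E s).div ((hasDerivAt_E s).add_const A) (den_pos hA).ne'
  refine h.congr_deriv ?_
  have := (den_pos (s := s) hA).ne'
  simp only [sg]; field_simp

lemma sg_sub {A B : ℝ} (hA : 0 < A) (hB : 0 < B) (s : ℝ) :
    sg A s - sg B s = exp (2 * s) * (B - A) / ((exp (2 * s) + A) * (exp (2 * s) + B)) := by
  have h1 := (den_pos (s := s) hA).ne'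
  have h2 := (den_pos (s := s) hB).ne'
  simp only [sg]; field_simp; ring

lemma lg_nonneg (hA : 0 < A) (s : ℝ) : 0 ≤ lg A s := by
  unfold lg
  have := log_le_log hA (by linarith [exp_pos (2 * s)] : A ≤ exp (2 * s) + A)
  linarith

/-- `lg A - lg B` is at most `log (B / A)` -/
lemma lg_sub_le {A B : ℝ} (hA : 0 < A) (hAB : A ≤ B) (s : ℝ) :
    lg A s - lg B s ≤ log B - log A := by
  unfold lg
  have := log_le_log (den_pos (s := s) hA) (by linarith : exp (2 * s) + A ≤ exp (2 * s) + B)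
  linarith

lemma lg_sub_nonneg {A B : ℝ} (hA : 0 < A) (hAB : A ≤ B) (s : ℝ) :
    0 ≤ lg A s - lg B s := by
  have hB : 0 < B := hA.trans_le hAB
  have h1 : log ((exp (2 * s) + B) * A) ≤ log ((exp (2 * s) + A) * B) := by
    apply log_le_log (mul_pos (den_pos hB) hA)
    nlinarith [exp_pos (2 * s)]
  rw [log_mul (den_pos hB).ne' hA.ne', log_mul (den_pos hA).ne' hB.ne'] at h1
  unfold lg; linarith

end basic

/-- `N'/N` -/
noncomputable def rh (a g A₁ A₂ A₃ s : ℝ) : ℝ :=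
  2 * a * (sg A₁ s - sg A₂ s) + 2 * g * (sg A₁ s - sg A₃ s)

/-- the slope -/
noncomputable def Nf (M a g A₁ A₂ A₃ s : ℝ) : ℝ :=
  M * exp (a * (lg A₁ s - lg A₂ s) + g * (lg A₁ s - lg A₃ s))

/-- derivative of the slope -/
noncomputable def Kf (M a g A₁ A₂ A₃ s : ℝ) : ℝ := rh a g A₁ A₂ A₃ s * Nf M a g A₁ A₂ A₃ s

/-- the slope potential -/
noncomputable def ph (M a g A₁ A₂ A₃ s : ℝ) : ℝ := ∫ t in (0 : ℝ)..s, Nf M a g A₁ A₂ A₃ t

section N

variable {M a g A₁ A₂ A₃ : ℝ}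

lemma contDiff_rh (h1 : 0 < A₁) (h2 : 0 < A₂) (h3 : 0 < A₃) :
    ContDiff ℝ ∞ (rh a g A₁ A₂ A₃) := by
  unfold rh
  exact (contDiff_const.mul ((contDiff_sg h1).sub (contDiff_sg h2))).add
    (contDiff_const.mul ((contDiff_sg h1).sub (contDiff_sg h3)))

lemma contDiff_Nf (h1 : 0 < A₁) (h2 : 0 < A₂) (h3 : 0 < A₃) :
    ContDiff ℝ ∞ (Nf M a g A₁ A₂ A₃) := by
  unfold Nf
  exact contDiff_const.mul (contDiff_exp.comp
    ((contDiff_const.mul ((contDiff_lg h1).sub (contDiff_lg h2))).add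
    (contDiff_const.mul ((contDiff_lg h1).sub (contDiff_lg h3)))))

lemma contDiff_Kf (h1 : 0 < A₁) (h2 : 0 < A₂) (h3 : 0 < A₃) :
    ContDiff ℝ ∞ (Kf M a g A₁ A₂ A₃) := by
  unfold Kf
  exact (contDiff_rh h1 h2 h3).mul (contDiff_Nf h1 h2 h3)

lemma hasDerivAt_Nf (h1 : 0 < A₁) (h2 : 0 < A₂) (h3 : 0 < A₃) (s : ℝ) :
    HasDerivAt (Nf M a g A₁ A₂ A₃) (Kf M a g A₁ A₂ A₃ s) s := by
  have h := ((((hasDerivAt_lg h1 s).sub (hasDerivAt_lg h2 s)).const_mul a).add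
    (((hasDerivAt_lg h1 s).sub (hasDerivAt_lg h3 s)).const_mul g)).exp.const_mul M
  refine h.congr_deriv ?_
  simp only [Kf, rh, Nf, Pi.add_apply, Pi.sub_apply]; ring

lemma hasDerivAt_ph (h1 : 0 < A₁) (h2 : 0 < A₂) (h3 : 0 < A₃) (s : ℝ) :
    HasDerivAt (ph M a g A₁ A₂ A₃) (Nf M a g A₁ A₂ A₃ s) s :=
  intervalIntegral.integral_hasDerivAt_right
    ((contDiff_Nf h1 h2 h3).continuous.intervalIntegrable _ _)
    (contDiff_Nf h1 h2 h3).continuous.aestronglyMeasurable.stronglyMeasurableAtFilter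
    (contDiff_Nf h1 h2 h3).continuous.continuousAt

lemma contDiff_ph (h1 : 0 < A₁) (h2 : 0 < A₂) (h3 : 0 < A₃) :
    ContDiff ℝ ∞ (ph M a g A₁ A₂ A₃) := by
  have h : deriv (ph M a g A₁ A₂ A₃) = Nf M a g A₁ A₂ A₃ :=
    funext fun s => (hasDerivAt_ph h1 h2 h3 s).deriv
  refine contDiff_infty_iff_deriv.2 ⟨fun s => (hasDerivAt_ph h1 h2 h3 s).differentiableAt, ?_⟩
  rw [h]; exact contDiff_Nf h1 h2 h3

lemma exp_pos_Nf (hM : 0 < M) (s : ℝ) : 0 < Nf M a g A₁ A₂ A₃ s := mul_pos hM (exp_pos _)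

lemma Nf_lo (hM : 0 < M) (ha : 0 ≤ a) (hg : 0 ≤ g) (h1 : 0 < A₁) (h2 : A₁ ≤ A₂) (h3 : A₁ ≤ A₃)
    (s : ℝ) : M ≤ Nf M a g A₁ A₂ A₃ s := by
  have h : 0 ≤ a * (lg A₁ s - lg A₂ s) + g * (lg A₁ s - lg A₃ s) :=
    add_nonneg (mul_nonneg ha (lg_sub_nonneg h1 h2 s)) (mul_nonneg hg (lg_sub_nonneg h1 h3 s))
  have := one_le_exp h
  unfold Nf; nlinarith

lemma Nf_hi (hM : 0 < M) (ha : 0 ≤ a) (hg : 0 ≤ g) (h1 : 0 < A₁) (h2 : A₁ ≤ A₂) (h3 : A₁ ≤ A₃)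
    (s : ℝ) : Nf M a g A₁ A₂ A₃ s ≤
      M * exp (a * (log A₂ - log A₁) + g * (log A₃ - log A₁)) := by
  unfold Nf
  refine mul_le_mul_of_nonneg_left (exp_le_exp.2 ?_) hM.le
  exact add_le_add (mul_le_mul_of_nonneg_left (lg_sub_le h1 h2 s) ha)
    (mul_le_mul_of_nonneg_left (lg_sub_le h1 h3 s) hg)

end N

section rates

variable {A B s : ℝ}

/-- lower bound below the first threshold -/
lemma diff_low (hA : 0 < A) (hAB : 2 * A ≤ B) (hE : exp (2 * s) ≤ A) :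
    exp (2 * s) / (8 * A) ≤ sg A s - sg B s := by
  have hB : 0 < B := by linarith
  have e := exp_pos (2 * s)
  rw [sg_sub hA hB, div_le_div_iff₀ (by positivity) (mul_pos (den_pos hA) (den_pos hB))]
  have h1 : (exp (2 * s) + A) * (exp (2 * s) + B) ≤ (2 * A) * (2 * B) :=
    mul_le_mul (by linarith) (by linarith) (den_pos hB).le (by linarith)
  have h2 : (2 * A) * (2 * B) ≤ (B - A) * (8 * A) := by nlinarith
  calc exp (2 * s) * ((exp (2 * s) + A) * (exp (2 * s) + B))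
      ≤ exp (2 * s) * ((B - A) * (8 * A)) := mul_le_mul_of_nonneg_left (h1.trans h2) e.le
    _ = exp (2 * s) * (B - A) * (8 * A) := by ring

/-- lower bound between the thresholds -/
lemma diff_mid (hA : 0 < A) (hAB : 2 * A ≤ B) (h1 : A ≤ exp (2 * s)) (h2 : exp (2 * s) ≤ B) :
    1 / 8 ≤ sg A s - sg B s := by
  have hB : 0 < B := by linarith
  have e := exp_pos (2 * s)
  rw [sg_sub hA hB, div_le_div_iff₀ (by positivity) (mul_pos (den_pos hA) (den_pos hB))]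
  have h3 : (exp (2 * s) + A) * (exp (2 * s) + B) ≤ (2 * exp (2 * s)) * (2 * B) :=
    mul_le_mul (by linarith) (by linarith) (den_pos hB).le (by linarith)
  nlinarith

/-- lower bound above the second threshold -/
lemma diff_high (hA : 0 < A) (hAB : 2 * A ≤ B) (h1 : B ≤ exp (2 * s)) :
    B / (8 * exp (2 * s)) ≤ sg A s - sg B s := by
  have hB : 0 < B := by linarith
  have e := exp_pos (2 * s)
  rw [sg_sub hA hB, div_le_div_iff₀ (by positivity) (mul_pos (den_pos hA) (den_pos hB))]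
  have h3 : (exp (2 * s) + A) * (exp (2 * s) + B) ≤ (2 * exp (2 * s)) * (2 * exp (2 * s)) :=
    mul_le_mul (by linarith) (by linarith) (den_pos hB).le (by linarith)
  calc B * ((exp (2 * s) + A) * (exp (2 * s) + B))
      ≤ B * ((2 * exp (2 * s)) * (2 * exp (2 * s))) := mul_le_mul_of_nonneg_left h3 hB.le
    _ ≤ exp (2 * s) * (B - A) * (8 * exp (2 * s)) := by nlinarith [mul_pos e e]

/-- the rate in the middle of the range is nearly maximal -/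
lemma diff_rate {τ : ℝ} (hA : 0 < A) (hB : 0 < B) (h1 : A ≤ τ * exp (2 * s))
    (h2 : exp (2 * s) ≤ τ * B) : 1 - 2 * τ ≤ sg A s - sg B s := by
  have e := exp_pos (2 * s)
  have h3 : 1 - τ ≤ sg A s := by
    rw [sg, le_div_iff₀ (den_pos hA)]
    have : 0 < τ := by
      by_contra h
      have : τ * exp (2 * s) ≤ 0 := mul_nonpos_of_nonpos_of_nonneg (not_lt.1 h) e.le
      linarith
    nlinarith
  have h4 : sg B s ≤ τ := by
    rw [sg, div_le_iff₀ (den_pos hB)]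
    have : 0 < τ := by
      by_contra h
      have : τ * B ≤ 0 := mul_nonpos_of_nonpos_of_nonneg (not_lt.1 h) hB.le
      linarith
    nlinarith
  linarith

lemma diff_nonneg (hA : 0 < A) (hAB : A ≤ B) : 0 ≤ sg A s - sg B s := by
  have hB := hA.trans_le hAB
  rw [sg_sub hA hB]
  exact div_nonneg (mul_nonneg (exp_pos _).le (by linarith)) (mul_pos (den_pos hA) (den_pos hB)).le

lemma diff_pos (hA : 0 < A) (hAB : A < B) : 0 < sg A s - sg B s := by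
  have hB := hA.trans hAB
  rw [sg_sub hA hB]
  exact div_pos (mul_pos (exp_pos _) (by linarith)) (mul_pos (den_pos hA) (den_pos hB))

lemma diff_le_one (hA : 0 < A) (hB : 0 < B) : sg A s - sg B s ≤ 1 := by
  have := sg_lt_one (s := s) hA; have := sg_pos (s := s) hB; linarith

lemma diff_le_up (hA : 0 < A) (hB : 0 < B) : (sg A s - sg B s) * exp (2 * s) ≤ B := by
  have e := exp_pos (2 * s)
  have h : 1 - sg B s ≤ B / exp (2 * s) := by
    rw [sg, le_div_iff₀ e, sub_mul, one_mul, div_mul_eq_mul_div, sub_le_iff_le_add, ← sub_le_iff_le_add']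
    rw [le_div_iff₀ (den_pos hB)]; nlinarith
  have h2 : sg A s - sg B s ≤ B / exp (2 * s) := by
    have := sg_lt_one (s := s) hA; linarith
  calc (sg A s - sg B s) * exp (2 * s) ≤ B / exp (2 * s) * exp (2 * s) :=
        mul_le_mul_of_nonneg_right h2 e.le
    _ = B := div_mul_cancel₀ _ e.ne'

lemma diff_le_low (hA : 0 < A) (hB : 0 < B) : (sg A s - sg B s) * A ≤ exp (2 * s) := by
  have h : sg A s * A ≤ exp (2 * s) := by
    rw [sg, div_mul_eq_mul_div, div_le_iff₀ (den_pos hA)]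
    nlinarith [exp_pos (2 * s)]
  have := sg_pos (s := s) hB; nlinarith

end rates

/-- the properties of the slope `N = φ'`, `K = φ''`; `E = exp (2 s)` -/
structure Slope (a b δ η ε C₁ C₂ A B M : ℝ) (N K : ℝ → ℝ) : Prop where
  sN : ContDiff ℝ ∞ N
  sK : ContDiff ℝ ∞ K
  d : ∀ s, HasDerivAt N (K s) s
  lo : ∀ s, M ≤ N s
  hi : ∀ s, N s ≤ A * M
  pos : ∀ s, 0 < K s
  rate : ∀ s, K s ≤ (2 * a + δ) * N s
  p0 : ∀ s, exp (2 * s) ≤ b * M → a / 4 * (exp (2 * s) / b) ≤ K s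
  p1 : ∀ s, b * M ≤ exp (2 * s) → η * exp (2 * s) ≤ N s → (2 * a - δ) * N s ≤ K s
  p2 : ∀ s, b * M ≤ exp (2 * s) → N s ≤ η * exp (2 * s) → N s ^ 2 ≤ ε * exp (2 * s) * K s
  k1 : ∀ s, b * M ≤ exp (2 * s) → exp (2 * s) ≤ C₂ * N s ^ 2 → C₁ * N s ^ (2 / 3 : ℝ) ≤ K s
  low : ∀ s, K s ≤ B * exp (2 * s)
  up : ∀ s, K s * exp (2 * s) ≤ B * M ^ 3

/-- numerical relations between the thresholds -/
structure Num (a b δ η ε C₁ C₂ A B M g A₁ A₂ A₃ τ κ : ℝ) : Prop where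
  ha : 0 < a
  hg : 0 < g
  hM : 1 ≤ M
  hb : 0 < b
  hε : 0 < ε
  hη : 0 < η
  hηε : η ≤ (2 * a - δ) * ε
  h1 : 0 < A₁
  h12 : 2 * A₁ ≤ A₂
  h13 : 2 * A₁ ≤ A₃
  hA1b : A₁ ≤ τ * (b * M)
  hτ : 0 < τ
  hτ1 : τ ≤ 1
  hτδ : 4 * a * τ ≤ δ
  hgδ : 2 * g ≤ δ
  hκ : 0 < κ
  hκη : κ ≤ η
  hκε : 8 * κ ≤ a * ε
  hbA : b * M ≤ A₂
  hA2 : ∀ s, Nf M a g A₁ A₂ A₃ s ≤ κ * τ * A₂
  hA : ∀ s, Nf M a g A₁ A₂ A₃ s ≤ A * M
  hC1 : ∀ s, C₁ * Nf M a g A₁ A₂ A₃ s ^ (2 / 3 : ℝ) ≤ g / 4 * Nf M a g A₁ A₂ A₃ s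
  hC2 : ∀ s, C₂ * Nf M a g A₁ A₂ A₃ s ^ 2 ≤ A₃
  hlow : (2 * a + 2 * g) * (A * M) ≤ B * A₁
  hup : (2 * a * A₂ + 2 * g * A₃) * (A * M) ≤ B * M ^ 3

namespace Num

variable {a b δ η ε C₁ C₂ A B M g A₁ A₂ A₃ τ κ s : ℝ}
  (h : Num a b δ η ε C₁ C₂ A B M g A₁ A₂ A₃ τ κ)

include h

lemma h2 : 0 < A₂ := by linarith [h.h1, h.h12]
lemma h3 : 0 < A₃ := by linarith [h.h1, h.h13]
lemma M0 : 0 < M := by linarith [h.hM]
lemma N0 : 0 < Nf M a g A₁ A₂ A₃ s := exp_pos_Nf h.M0 s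
lemma Nlo : M ≤ Nf M a g A₁ A₂ A₃ s :=
  Nf_lo h.M0 h.ha.le h.hg.le h.h1 (by linarith [h.h1, h.h12]) (by linarith [h.h1, h.h13]) s
lemma d2 : 0 ≤ sg A₁ s - sg A₂ s := diff_nonneg h.h1 (by linarith [h.h1, h.h12])
lemma d3 : 0 ≤ sg A₁ s - sg A₃ s := diff_nonneg h.h1 (by linarith [h.h1, h.h13])

lemma rlow {x : ℝ} (hx : x ≤ sg A₁ s - sg A₂ s) : 2 * a * x ≤ rh a g A₁ A₂ A₃ s := by
  have h4 := mul_nonneg (mul_nonneg (zero_le_two (α := ℝ)) h.hg.le) (h.d3 (s := s))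
  have h5 := mul_le_mul_of_nonneg_left hx (by linarith [h.ha] : 0 ≤ 2 * a)
  unfold rh; linarith

lemma Klow {x : ℝ} (hx : x ≤ sg A₁ s - sg A₂ s) :
    2 * a * x * Nf M a g A₁ A₂ A₃ s ≤ Kf M a g A₁ A₂ A₃ s :=
  mul_le_mul_of_nonneg_right (h.rlow hx) h.N0.le

lemma mid (hs : b * M ≤ exp (2 * s)) : A₁ ≤ exp (2 * s) := by
  have h4 : τ * (b * M) ≤ 1 * (b * M) :=
    mul_le_mul_of_nonneg_right h.hτ1 (mul_pos h.hb h.M0).le
  linarith [h.hA1b]

lemma kpos : 0 < Kf M a g A₁ A₂ A₃ s := by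
  have := h.h1; have := h.h12; have := h.h13; have := h.ha; have := h.hg
  exact mul_pos (add_pos (mul_pos (by linarith) (diff_pos h.h1 (by linarith)))
    (mul_pos (by linarith) (diff_pos h.h1 (by linarith)))) h.N0

lemma rate : Kf M a g A₁ A₂ A₃ s ≤ (2 * a + δ) * Nf M a g A₁ A₂ A₃ s := by
  refine mul_le_mul_of_nonneg_right ?_ h.N0.le
  have e2 := mul_le_mul_of_nonneg_left (diff_le_one (s := s) h.h1 h.h2)
    (by linarith [h.ha] : 0 ≤ 2 * a)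
  have e3 := mul_le_mul_of_nonneg_left (diff_le_one (s := s) h.h1 h.h3)
    (by linarith [h.hg] : 0 ≤ 2 * g)
  have := h.hgδ
  unfold rh; linarith

lemma p0 (hs : exp (2 * s) ≤ b * M) : a / 4 * (exp (2 * s) / b) ≤ Kf M a g A₁ A₂ A₃ s := by
  have ha := h.ha
  have hb := h.hb
  have h1 := h.h1
  have e0 := exp_pos (2 * s)
  by_cases hE : exp (2 * s) ≤ A₁
  · refine le_trans ?_ (h.Klow (diff_low h.h1 h.h12 hE))
    have e3 : 0 ≤ 2 * a * (exp (2 * s) / (8 * A₁)) := by positivity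
    refine le_trans ?_ (mul_le_mul_of_nonneg_left (h.Nlo (s := s)) e3)
    have h4 : A₁ ≤ b * M := by
      have h4 : τ * (b * M) ≤ 1 * (b * M) :=
        mul_le_mul_of_nonneg_right h.hτ1 (mul_pos h.hb h.M0).le
      linarith [h.hA1b]
    have : exp (2 * s) / b ≤ exp (2 * s) / A₁ * M := by
      rw [div_mul_eq_mul_div, div_le_div_iff₀ hb h1, mul_assoc]
      refine mul_le_mul_of_nonneg_left ?_ e0.le
      linarith
    calc a / 4 * (exp (2 * s) / b) ≤ a / 4 * (exp (2 * s) / A₁ * M) :=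
          mul_le_mul_of_nonneg_left this (by linarith)
      _ = 2 * a * (exp (2 * s) / (8 * A₁)) * M := by
          rw [mul_comm 8 A₁, ← div_div]; ring
  · refine le_trans ?_ (h.Klow (diff_mid h.h1 h.h12 (not_le.1 hE).le (hs.trans h.hbA)))
    have e2 : exp (2 * s) / b ≤ M := by rw [div_le_iff₀ hb]; linarith
    calc a / 4 * (exp (2 * s) / b) ≤ a / 4 * M := mul_le_mul_of_nonneg_left e2 (by linarith)
      _ ≤ a / 4 * Nf M a g A₁ A₂ A₃ s := mul_le_mul_of_nonneg_left h.Nlo (by linarith)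
      _ = 2 * a * (1 / 8) * Nf M a g A₁ A₂ A₃ s := by ring

lemma p1' (hs : b * M ≤ exp (2 * s)) (hn : κ * exp (2 * s) ≤ Nf M a g A₁ A₂ A₃ s) :
    (2 * a - δ) * Nf M a g A₁ A₂ A₃ s ≤ Kf M a g A₁ A₂ A₃ s := by
  have e0 := exp_pos (2 * s)
  have e4 : exp (2 * s) ≤ τ * A₂ := by
    have h5 : κ * exp (2 * s) ≤ κ * (τ * A₂) := by
      rw [← mul_assoc]; exact hn.trans (h.hA2 s)
    exact le_of_mul_le_mul_left h5 h.hκ
  have e5 : A₁ ≤ τ * exp (2 * s) := h.hA1b.trans (mul_le_mul_of_nonneg_left hs h.hτ.le)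
  refine le_trans ?_ (h.Klow (diff_rate h.h1 h.h2 e5 e4))
  refine mul_le_mul_of_nonneg_right ?_ h.N0.le
  have := h.hτδ; linarith

lemma p1 (hs : b * M ≤ exp (2 * s)) (hn : η * exp (2 * s) ≤ Nf M a g A₁ A₂ A₃ s) :
    (2 * a - δ) * Nf M a g A₁ A₂ A₃ s ≤ Kf M a g A₁ A₂ A₃ s :=
  h.p1' hs ((mul_le_mul_of_nonneg_right h.hκη (exp_pos _).le).trans hn)

lemma p2 (hs : b * M ≤ exp (2 * s)) (hn : Nf M a g A₁ A₂ A₃ s ≤ η * exp (2 * s)) :
    Nf M a g A₁ A₂ A₃ s ^ 2 ≤ ε * exp (2 * s) * Kf M a g A₁ A₂ A₃ s := by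
  have e0 := exp_pos (2 * s)
  have hn0 := h.N0 (s := s)
  have hε := h.hε
  have ha := h.ha
  have hκ := h.hκ
  by_cases hc : κ * exp (2 * s) ≤ Nf M a g A₁ A₂ A₃ s
  · calc Nf M a g A₁ A₂ A₃ s ^ 2 = Nf M a g A₁ A₂ A₃ s * Nf M a g A₁ A₂ A₃ s := by ring
      _ ≤ η * exp (2 * s) * Nf M a g A₁ A₂ A₃ s := mul_le_mul_of_nonneg_right hn hn0.le
      _ ≤ (2 * a - δ) * ε * exp (2 * s) * Nf M a g A₁ A₂ A₃ s :=
          mul_le_mul_of_nonneg_right (mul_le_mul_of_nonneg_right h.hηε e0.le) hn0.le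
      _ = ε * exp (2 * s) * ((2 * a - δ) * Nf M a g A₁ A₂ A₃ s) := by ring
      _ ≤ _ := mul_le_mul_of_nonneg_left (h.p1' hs hc) (mul_pos hε e0).le
  · have hc' := (not_le.1 hc).le
    by_cases hE : exp (2 * s) ≤ A₂
    · have e6 := h.Klow (diff_mid h.h1 h.h12 (h.mid hs) hE)
      calc Nf M a g A₁ A₂ A₃ s ^ 2 = Nf M a g A₁ A₂ A₃ s * Nf M a g A₁ A₂ A₃ s := by ring
        _ ≤ κ * exp (2 * s) * Nf M a g A₁ A₂ A₃ s := mul_le_mul_of_nonneg_right hc' hn0.le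
        _ ≤ (a * ε / 4) * exp (2 * s) * Nf M a g A₁ A₂ A₃ s := by
            refine mul_le_mul_of_nonneg_right (mul_le_mul_of_nonneg_right ?_ e0.le) hn0.le
            have := h.hκε; linarith
        _ = ε * exp (2 * s) * (2 * a * (1 / 8) * Nf M a g A₁ A₂ A₃ s) := by ring
        _ ≤ _ := mul_le_mul_of_nonneg_left e6 (mul_pos hε e0).le
    · have e6 := h.Klow (diff_high h.h1 h.h12 (not_le.1 hE).le)
      have e7 : Nf M a g A₁ A₂ A₃ s ≤ ε * a * A₂ / 4 := by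
        refine (h.hA2 s).trans ?_
        have e8 : κ * τ ≤ κ * 1 := mul_le_mul_of_nonneg_left h.hτ1 hκ.le
        have e9 : κ * τ ≤ ε * a / 4 := by have := h.hκε; linarith
        calc κ * τ * A₂ ≤ ε * a / 4 * A₂ := mul_le_mul_of_nonneg_right e9 h.h2.le
          _ = ε * a * A₂ / 4 := by ring
      calc Nf M a g A₁ A₂ A₃ s ^ 2 = Nf M a g A₁ A₂ A₃ s * Nf M a g A₁ A₂ A₃ s := by ring
        _ ≤ ε * a * A₂ / 4 * Nf M a g A₁ A₂ A₃ s := mul_le_mul_of_nonneg_right e7 hn0.le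
        _ = ε * exp (2 * s) * (2 * a * (A₂ / (8 * exp (2 * s))) * Nf M a g A₁ A₂ A₃ s) := by
            field_simp; ring
        _ ≤ _ := mul_le_mul_of_nonneg_left e6 (mul_pos hε e0).le

lemma k1 (hs : b * M ≤ exp (2 * s)) (hn : exp (2 * s) ≤ C₂ * Nf M a g A₁ A₂ A₃ s ^ 2) :
    C₁ * Nf M a g A₁ A₂ A₃ s ^ (2 / 3 : ℝ) ≤ Kf M a g A₁ A₂ A₃ s := by
  have e1 : 2 * g * (1 / 8) ≤ rh a g A₁ A₂ A₃ s := by
    have h4 := mul_le_mul_of_nonneg_left (diff_mid h.h1 h.h13 (h.mid hs) (hn.trans (h.hC2 s)))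
      (by linarith [h.hg] : 0 ≤ 2 * g)
    have h5 := mul_nonneg (by linarith [h.ha] : 0 ≤ 2 * a) (h.d2 (s := s))
    unfold rh; linarith
  refine (h.hC1 s).trans (mul_le_mul_of_nonneg_right ?_ h.N0.le)
  linarith

lemma low : Kf M a g A₁ A₂ A₃ s ≤ B * exp (2 * s) := by
  have ha := h.ha
  have hg := h.hg
  have e2 := mul_le_mul_of_nonneg_left (diff_le_low (s := s) h.h1 h.h2) (by linarith : 0 ≤ 2 * a)
  have e3 := mul_le_mul_of_nonneg_left (diff_le_low (s := s) h.h1 h.h3) (by linarith : 0 ≤ 2 * g)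
  have e4 : rh a g A₁ A₂ A₃ s * A₁ ≤ (2 * a + 2 * g) * exp (2 * s) := by
    unfold rh; linarith
  have e5 : Kf M a g A₁ A₂ A₃ s * A₁ ≤ B * exp (2 * s) * A₁ := by
    calc Kf M a g A₁ A₂ A₃ s * A₁ = (rh a g A₁ A₂ A₃ s * A₁) * Nf M a g A₁ A₂ A₃ s := by
          unfold Kf; ring
      _ ≤ ((2 * a + 2 * g) * exp (2 * s)) * Nf M a g A₁ A₂ A₃ s :=
          mul_le_mul_of_nonneg_right e4 h.N0.le
      _ ≤ ((2 * a + 2 * g) * exp (2 * s)) * (A * M) :=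
          mul_le_mul_of_nonneg_left (h.hA s) (by positivity)
      _ = ((2 * a + 2 * g) * (A * M)) * exp (2 * s) := by ring
      _ ≤ (B * A₁) * exp (2 * s) := mul_le_mul_of_nonneg_right h.hlow (exp_pos _).le
      _ = B * exp (2 * s) * A₁ := by ring
  exact le_of_mul_le_mul_right e5 h.h1

lemma up : Kf M a g A₁ A₂ A₃ s * exp (2 * s) ≤ B * M ^ 3 := by
  have ha := h.ha
  have hg := h.hg
  have h2 := h.h2
  have h3 := h.h3
  have e2 := mul_le_mul_of_nonneg_left (diff_le_up (s := s) h.h1 h.h2) (by linarith : 0 ≤ 2 * a)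
  have e3 := mul_le_mul_of_nonneg_left (diff_le_up (s := s) h.h1 h.h3) (by linarith : 0 ≤ 2 * g)
  have e4 : rh a g A₁ A₂ A₃ s * exp (2 * s) ≤ 2 * a * A₂ + 2 * g * A₃ := by
    unfold rh; linarith
  calc Kf M a g A₁ A₂ A₃ s * exp (2 * s)
      = (rh a g A₁ A₂ A₃ s * exp (2 * s)) * Nf M a g A₁ A₂ A₃ s := by unfold Kf; ring
    _ ≤ (2 * a * A₂ + 2 * g * A₃) * Nf M a g A₁ A₂ A₃ s :=
        mul_le_mul_of_nonneg_right e4 h.N0.le
    _ ≤ (2 * a * A₂ + 2 * g * A₃) * (A * M) :=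
        mul_le_mul_of_nonneg_left (h.hA s) (by positivity)
    _ ≤ _ := h.hup

theorem slope : Slope a b δ η ε C₁ C₂ A B M (Nf M a g A₁ A₂ A₃) (Kf M a g A₁ A₂ A₃) where
  sN := contDiff_Nf h.h1 h.h2 h.h3
  sK := contDiff_Kf h.h1 h.h2 h.h3
  d s := hasDerivAt_Nf h.h1 h.h2 h.h3 s
  lo _ := h.Nlo
  hi := h.hA
  pos _ := h.kpos
  rate _ := h.rate
  p0 _ := h.p0
  p1 _ := h.p1
  p2 _ := h.p2
  k1 _ := h.k1
  low _ := h.low
  up _ := h.up

end Num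

end Vale.Agent.P088.R2.H406.Phi
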